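import Vale.Agent.P297.Bdl.B1

/-!
From one generic relation to all closed points, for points with values in any field.
-/

set_option linter.unusedSectionVars false
set_option linter.style.haveILetI false

open CategoryTheory AlgebraicGeometry IntermediateField Polynomial

namespace Vale.Agent.P297.Gen

open Vale.Agent.P297

/-- Extension of `ℂ`-points along a generically finite map. -/
theorem exists_extend' {C : Type} [CommRing C] [IsDomain C] [Algebra ℂ C] {N : Type} [Field N]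
    [Algebra ℂ N] (ι : C →ₐ[ℂ] N) (hι : Function.Injective ι)
    (s : Finset N) (halg : ∀ y ∈ s, ∃ p : C[X], p ≠ 0 ∧ p.eval₂ ι.toRingHom y = 0)
    (A : Subalgebra ℂ N) (hA : A ≤ Algebra.adjoin ℂ (Set.range ι ∪ (s : Set N)))
    (hCA : ∀ c, ι c ∈ A) :
    ∃ b : C, b ≠ 0 ∧ ∀ φ : C →ₐ[ℂ] ℂ, φ b ≠ 0 →
      ∃ ξ : A →ₐ[ℂ] ℂ, ∀ c, ξ ⟨ι c, hCA c⟩ = φ c := by
  classical
  have halg' : ∀ y : N, ∃ p : C[X], y ∈ s → p ≠ 0 ∧ p.eval₂ ι.toRingHom y = 0 := by
    intro y
    by_cases hy : y ∈ s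
    · obtain ⟨p, hp⟩ := halg y hy
      exact ⟨p, fun _ => hp⟩
    · exact ⟨0, fun h => absurd h hy⟩
  choose p hp' using halg'
  have hp0 : ∀ y ∈ s, p y ≠ 0 := fun y hy => (hp' y hy).1
  have hp : ∀ y ∈ s, (p y).eval₂ ι.toRingHom y = 0 := fun y hy => (hp' y hy).2
  let b : C := ∏ y ∈ s, (p y).leadingCoeff
  have hb : b ≠ 0 := Finset.prod_ne_zero_iff.2 fun y hy => leadingCoeff_ne_zero.2 (hp0 y hy)
  refine ⟨b, hb, fun φ hφ => ?_⟩
  have hιb : ι b ≠ 0 := by
    intro h
    exact hb (hι (by rw [h, map_zero]))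
  let R := Localization.Away b
  let RN : R →ₐ[ℂ] N := awayLift ι b hιb.isUnit
  letI : Algebra R N := RN.toRingHom.toAlgebra
  have hRN : ∀ c, algebraMap R N (algebraMap C R c) = ι c := fun c =>
    awayLift_algebraMap ι b hιb.isUnit c
  have hinj : Function.Injective (algebraMap R N) := by
    rw [injective_iff_map_eq_zero]
    intro z hz
    obtain ⟨⟨a, d⟩, had⟩ := IsLocalization.surj (Submonoid.powers b) z
    have h1 := congrArg (algebraMap R N) had
    rw [map_mul, hz, zero_mul, hRN] at h1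
    have h2 : a = 0 := hι (by rw [← h1, map_zero])
    rw [h2, map_zero] at had
    exact (IsLocalization.map_units R d).mul_left_eq_zero.1 had
  let B := integralClosure R N
  have hsB : ∀ y ∈ s, y ∈ B := by
    intro y hy
    have hdvd : (p y).leadingCoeff ∣ b := Finset.dvd_prod_of_mem _ hy
    have hunit : IsUnit (algebraMap C R (p y).leadingCoeff) :=
      isUnit_of_dvd_unit (map_dvd _ hdvd) (IsLocalization.Away.algebraMap_isUnit b)
    obtain ⟨u, hu⟩ := hunit
    have hCR : Function.Injective (algebraMap C R) := by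
      intro x y hxy
      apply hι
      rw [← hRN, ← hRN, hxy]
    refine ⟨Polynomial.C ((u⁻¹ : Rˣ) : R) * (p y).map (algebraMap C R), ?_, ?_⟩
    · rw [Polynomial.Monic, Polynomial.leadingCoeff_mul', Polynomial.leadingCoeff_C,
        Polynomial.leadingCoeff_map_of_injective hCR, ← hu, Units.inv_mul]
      rw [Polynomial.leadingCoeff_C, Polynomial.leadingCoeff_map_of_injective hCR, ← hu,
        Units.inv_mul]
      intro h0
      apply hφ
      have h1 : (1 : R) = 0 := h0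
      have h2 : ι 1 = 0 := by rw [← hRN, map_one, h1, map_zero]
      rw [map_one] at h2
      exact absurd h2 one_ne_zero
    · rw [Polynomial.eval₂_mul, Polynomial.eval₂_map]
      have h1 : (algebraMap R N).comp (algebraMap C R) = ι.toRingHom := RingHom.ext hRN
      rw [h1, hp y hy, mul_zero]
  have hall : ∀ x ∈ Algebra.adjoin ℂ (Set.range ι ∪ (s : Set N)), x ∈ B := by
    intro x hx
    induction hx using Algebra.adjoin_induction with
    | mem x hx =>
      rcases hx with ⟨c, rfl⟩ | hx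
      · rw [← hRN c]
        exact Subalgebra.algebraMap_mem B _
      · exact hsB x hx
    | algebraMap a =>
      have h1 : algebraMap ℂ N a = algebraMap R N (algebraMap C R (algebraMap ℂ C a)) := by
        rw [hRN, AlgHom.commutes]
      rw [h1]
      exact Subalgebra.algebraMap_mem B _
    | add x y _ _ hx hy => exact add_mem hx hy
    | mul x y _ _ hx hy => exact mul_mem hx hy
  have hAB : ∀ x : A, (x : N) ∈ B := fun x => hall x (hA x.2)
  let φ₁ : R →ₐ[ℂ] ℂ := awayLift φ b hφ.isUnit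
  have hφ₁ : ∀ c, φ₁ (algebraMap C R c) = φ c := fun c => awayLift_algebraMap φ b _ c
  have hφsurj : Function.Surjective φ₁.toRingHom := fun a => ⟨algebraMap ℂ R a, φ₁.commutes a⟩
  let 𝔪 : Ideal R := RingHom.ker φ₁.toRingHom
  haveI h𝔪 : 𝔪.IsMaximal := RingHom.ker_isMaximal_of_surjective _ hφsurj
  haveI : FaithfulSMul R B := by
    rw [faithfulSMul_iff_algebraMap_injective]
    intro x y hxy
    exact hinj (congrArg (fun z : B => (z : N)) hxy)
  obtain ⟨Q, hQ, hQl⟩ := Ideal.exists_maximal_ideal_liesOver_of_isIntegral 𝔪 (S := B)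
  letI : Field (R ⧸ 𝔪) := Ideal.Quotient.field _
  letI : Field (B ⧸ Q) := Ideal.Quotient.field _
  let e1 : R ⧸ 𝔪 ≃+* ℂ := RingHom.quotientKerEquivOfSurjective hφsurj
  haveI : IsAlgClosed (R ⧸ 𝔪) := IsAlgClosed.of_ringEquiv ℂ _ e1.symm
  haveI : Algebra.IsIntegral (R ⧸ 𝔪) (B ⧸ Q) := inferInstance
  have hbij := IsAlgClosed.algebraMap_bijective_of_isIntegral (k := R ⧸ 𝔪) (K := B ⧸ Q)
  let e2 : R ⧸ 𝔪 ≃+* B ⧸ Q := RingEquiv.ofBijective (algebraMap (R ⧸ 𝔪) (B ⧸ Q)) hbij
  let AB : A →+* B := (algebraMap A N).codRestrict B hAB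
  let ξ₀ : A →+* ℂ := ((e1 : R ⧸ 𝔪 →+* ℂ).comp (e2.symm : B ⧸ Q →+* R ⧸ 𝔪)).comp
    ((Ideal.Quotient.mk Q).comp AB)
  have hξ₀ : ∀ c, ξ₀ ⟨ι c, hCA c⟩ = φ c := by
    intro c
    have h1 : AB ⟨ι c, hCA c⟩ = algebraMap R B (algebraMap C R c) :=
      Subtype.ext (hRN c).symm
    have h2 : Ideal.Quotient.mk Q (AB ⟨ι c, hCA c⟩) =
        e2 (Ideal.Quotient.mk 𝔪 (algebraMap C R c)) := by
      rw [h1]
      rfl
    change e1 (e2.symm (Ideal.Quotient.mk Q (AB ⟨ι c, hCA c⟩))) = φ c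
    rw [h2, RingEquiv.symm_apply_apply, ← hφ₁ c]
    rfl
  refine ⟨{ ξ₀ with commutes' := ?_ }, hξ₀⟩
  intro a
  have h1 : algebraMap ℂ A a = ⟨ι (algebraMap ℂ C a), hCA _⟩ := by
    apply Subtype.ext
    change algebraMap ℂ N a = ι (algebraMap ℂ C a)
    rw [AlgHom.commutes]
  change ξ₀ (algebraMap ℂ A a) = _
  rw [h1, hξ₀, AlgHom.commutes]

/-- Extension of `ℂ`-points: general version, no algebraicity. -/
theorem exists_extend_gen {C : Type} [CommRing C] [IsDomain C] [Algebra ℂ C] {N : Type} [Field N]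
    [Algebra ℂ N] (ι : C →ₐ[ℂ] N) (hι : Function.Injective ι)
    (A : Subalgebra ℂ N) (hA : A.FG) (hCA : ∀ c, ι c ∈ A) :
    ∃ b : C, b ≠ 0 ∧ ∀ φ : C →ₐ[ℂ] ℂ, φ b ≠ 0 →
      ∃ ξ : A →ₐ[ℂ] ℂ, ∀ c, ξ ⟨ι c, hCA c⟩ = φ c := by
  classical
  obtain ⟨s, hs⟩ := hA
  letI : Algebra C N := ι.toRingHom.toAlgebra
  haveI : IsScalarTower ℂ C N := IsScalarTower.of_algebraMap_eq fun a => (ι.commutes a).symm
  haveI : FaithfulSMul C N := (faithfulSMul_iff_algebraMap_injective C N).2 hι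
  obtain ⟨T, hT⟩ := exists_isTranscendenceBasis C N
  let ι' : MvPolynomial T C →ₐ[ℂ] N :=
    (MvPolynomial.aeval (R := C) ((↑) : T → N)).restrictScalars ℂ
  have hι' : Function.Injective ι' := hT.1
  have hιC : ∀ c, ι' (MvPolynomial.C c) = ι c := by
    intro c
    change MvPolynomial.aeval (R := C) ((↑) : T → N) (MvPolynomial.C c) = ι c
    rw [MvPolynomial.aeval_C]
    rfl
  have halg : ∀ y ∈ s, ∃ p : (MvPolynomial T C)[X], p ≠ 0 ∧ p.eval₂ ι'.toRingHom y = 0 := by
    intro y _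
    haveI := hT.isAlgebraic
    obtain ⟨p, hp0, hp⟩ := Algebra.IsAlgebraic.isAlgebraic
      (R := Algebra.adjoin C (Set.range ((↑) : T → N))) y
    let e := hT.1.aevalEquiv
    let e' : Algebra.adjoin C (Set.range ((↑) : T → N)) →+* MvPolynomial T C :=
      e.symm.toAlgHom.toRingHom
    have he' : Function.Injective e' := e.symm.injective
    refine ⟨p.map e', ?_, ?_⟩
    · rw [Ne, Polynomial.map_eq_zero_iff he']
      exact hp0
    · rw [Polynomial.eval₂_map]
      have h1 : ι'.toRingHom.comp e' =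
          algebraMap (Algebra.adjoin C (Set.range ((↑) : T → N))) N := by
        apply RingHom.ext
        intro z
        change MvPolynomial.aeval (R := C) ((↑) : T → N) (e.symm z) = _
        rw [← hT.1.algebraMap_aevalEquiv]
        change algebraMap _ N (e (e.symm z)) = _
        rw [AlgEquiv.apply_symm_apply]
      rw [h1]
      exact hp
  have hAA : A ≤ Algebra.adjoin ℂ (Set.range ι' ∪ (s : Set N)) := by
    rw [← hs]
    exact Algebra.adjoin_mono Set.subset_union_right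
  obtain ⟨b', hb', hext⟩ := exists_extend' ι' hι' s halg
    (Algebra.adjoin ℂ (Set.range ι' ∪ (s : Set N))) le_rfl
    (fun c => Algebra.subset_adjoin (Or.inl ⟨c, rfl⟩))
  obtain ⟨m, hm⟩ := MvPolynomial.exists_coeff_ne_zero hb'
  refine ⟨b'.coeff m, hm, fun φ hφ => ?_⟩
  have h1 : MvPolynomial.map φ.toRingHom b' ≠ 0 := by
    intro h
    apply hφ
    have h2 := congrArg (MvPolynomial.coeff m) h
    rw [MvPolynomial.coeff_map, MvPolynomial.coeff_zero] at h2
    exact h2
  obtain ⟨v, hv⟩ : ∃ v : T → ℂ, MvPolynomial.eval v (MvPolynomial.map φ.toRingHom b') ≠ 0 := by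
    by_contra hcon
    push Not at hcon
    apply h1
    apply MvPolynomial.funext
    intro v
    rw [hcon v, map_zero]
  let φ' : MvPolynomial T C →ₐ[ℂ] ℂ :=
    { (MvPolynomial.eval v).comp (MvPolynomial.map φ.toRingHom) with
      commutes' := by
        intro a
        change MvPolynomial.eval v (MvPolynomial.map φ.toRingHom
          (MvPolynomial.C (algebraMap ℂ C a))) = _
        rw [MvPolynomial.map_C, MvPolynomial.eval_C]
        exact φ.commutes a }
  have hφC : ∀ c, φ' (MvPolynomial.C c) = φ c := by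
    intro c
    change MvPolynomial.eval v (MvPolynomial.map φ.toRingHom (MvPolynomial.C c)) = _
    rw [MvPolynomial.map_C, MvPolynomial.eval_C]
    rfl
  obtain ⟨ξ, hξ⟩ := hext φ' hv
  refine ⟨ξ.comp (Subalgebra.inclusion hAA), fun c => ?_⟩
  rw [← hφC c, ← hξ]
  change ξ _ = ξ _
  congr 1
  exact Subtype.ext (hιC c).symm

/-- From generic points to all points. -/
theorem global_of_generic' {S : Scheme.{0}} [IsIntegral S] (f : S ⟶ Spec (.of ℂ)) [IsProper f]
    {U : S.Opens} (hU : IsAffineOpen U) [Nonempty U] {N : Type} [Field N] [Algebra ℂ N] (n : ℤ)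
    (R : AddSubgroup (ZeroCycle S)) (hR : Rat f ≤ R) :
    letI := chartAlg f hU
    ∀ (ι : Γ(S, U) →ₐ[ℂ] N) (_ : Function.Injective ι)
    (A : Subalgebra ℂ N) (_ : A.FG) (hCA : ∀ c, ι c ∈ A)
    (_ : ∀ ξ₁ ξ₂ : A →ₐ[ℂ] ℂ, n •
      (Finsupp.single (pt f hU.fromSpec (chart_hj f hU) (ξ₁.comp (ι.codRestrict A hCA))) (1 : ℤ) -
       Finsupp.single (pt f hU.fromSpec (chart_hj f hU) (ξ₂.comp (ι.codRestrict A hCA))) (1 : ℤ))
        ∈ R),
    ∀ x y : closedPoints S, n • (Finsupp.single x (1 : ℤ) - Finsupp.single y 1) ∈ R := by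
  classical
  letI := chartAlg f hU
  intro ι hι A hA hCA hgen x y
  obtain ⟨b, hb, hext⟩ := exists_extend_gen ι hι A hA hCA
  have hVne : ((S.basicOpen b : S.Opens) : Set S).Nonempty := by
    by_contra hcon
    rw [Set.not_nonempty_iff_eq_empty] at hcon
    apply hb
    rw [← AlgebraicGeometry.basicOpen_eq_bot_iff]
    exact TopologicalSpace.Opens.ext hcon
  obtain ⟨zx, hzx, hdx, hmx⟩ := moving f (S.basicOpen b) hVne x
  obtain ⟨zy, hzy, hdy, hmy⟩ := moving f (S.basicOpen b) hVne y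
  -- a point of the open set
  have hne : zx.support.Nonempty := by
    rw [Finset.nonempty_iff_ne_empty, Ne, Finsupp.support_eq_empty]
    rintro rfl
    rw [map_zero] at hdx
    exact one_ne_zero hdx.symm
  obtain ⟨p₀, hp₀⟩ := hne
  have hex : ∀ p : closedPoints S, (p : S) ∈ S.basicOpen b →
      ∃ ξ : A →ₐ[ℂ] ℂ, pt f hU.fromSpec (chart_hj f hU) (ξ.comp (ι.codRestrict A hCA)) = p := by
    intro p hp
    have hpU : (p : S) ∈ U := S.basicOpen_le b hp
    obtain ⟨ψ, hψ⟩ := chart_exists_pt f hU p hpU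
    have hψb : ψ b ≠ 0 := by
      rw [← chart_pt_mem f hU b ψ, hψ]
      exact hp
    obtain ⟨ξ, hξ⟩ := hext ψ hψb
    refine ⟨ξ, ?_⟩
    rw [← hψ]
    congr 1
    exact AlgHom.ext hξ
  obtain ⟨ξ₀, hξ₀⟩ := hex p₀ (hzx p₀ hp₀)
  have hV : ∀ p ∈ {p : closedPoints S | (p : S) ∈ S.basicOpen b},
      n • (Finsupp.single p (1 : ℤ) - Finsupp.single p₀ 1) ∈ R := by
    intro p hp
    obtain ⟨ξ, hξ⟩ := hex p hp
    rw [← hξ, ← hξ₀]
    exact hgen ξ ξ₀
  have h1 := smul_sub_mem_of_support R n _ p₀ hV zx hzx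
  have h2 := smul_sub_mem_of_support R n _ p₀ hV zy hzy
  rw [hdx] at h1
  rw [hdy] at h2
  have h3 : n • (Finsupp.single x (1 : ℤ) - Finsupp.single y 1) =
      n • (Finsupp.single x (1 : ℤ) - zx) - n • (Finsupp.single y (1 : ℤ) - zy) +
      (n • (zx - Finsupp.single p₀ 1) - n • (zy - Finsupp.single p₀ 1)) := by
    rw [← smul_sub, ← smul_sub, ← smul_add]
    congr 1
    abel
  rw [h3]
  exact R.add_mem (R.sub_mem (R.zsmul_mem (hR hmx) n) (R.zsmul_mem (hR hmy) n))
    (R.sub_mem h1 h2)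

/-- From a relation among `N`-valued points to all closed points. -/
theorem global_of_good' {S : Scheme.{0}} [IsIntegral S] (f : S ⟶ Spec (.of ℂ)) [IsProper f]
    {U : S.Opens} (hU : IsAffineOpen U) [Nonempty U] {N : Type} [Field N] [Algebra ℂ N] (n : ℤ)
    (R : AddSubgroup (ZeroCycle S)) (hR : Rat f ≤ R) :
    letI := chartAlg f hU
    ∀ (ι : Γ(S, U) →ₐ[ℂ] N) (_ : Function.Injective ι)
    (_ : Finsupp.single ι n ∈ Good f hU.fromSpec (chart_hj f hU) R N),
    ∀ x y : closedPoints S, n • (Finsupp.single x (1 : ℤ) - Finsupp.single y 1) ∈ R := by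
  letI := chartAlg f hU
  haveI := chart_finiteType f hU
  intro ι hι hgood
  obtain ⟨A₀, hA₀, h⟩ := hgood
  let A : Subalgebra ℂ N := A₀ ⊔ ι.range
  have hιA : ∀ c, ι c ∈ A := fun c => (le_sup_right : ι.range ≤ A) ⟨c, rfl⟩
  have hA : A.FG := by
    apply hA₀.sup
    rw [← Algebra.map_top]
    exact (Algebra.FiniteType.out).map ι
  refine global_of_generic' f hU n R hR ι hι A hA hιA ?_
  intro ξ₁ ξ₂
  have h1 := h A le_sup_left ξ₁ ξ₂
  rw [pair_single, pair_single, cyc_of_mem f _ _ A ξ₁ ι hιA, cyc_of_mem f _ _ A ξ₂ ι hιA,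
    ← smul_sub] at h1
  exact h1

end Vale.Agent.P297.Gen
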