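import Vale.Agent.P297.Gen.H878.Sqf
import Vale.Agent.P297.Gen.Main
import Vale.Agent.P297.H878.Five
import Vale.Agent.P297.H878.Val

/-!
Pencils of curves of genus two with (3,3)-split Jacobian: zero-cycles, integrally.
-/

set_option linter.unusedSectionVars false
set_option linter.style.haveILetI false

open CategoryTheory AlgebraicGeometry IntermediateField Polynomial

namespace Vale.Agent.P297.Gen

open Vale.Agent.P297 Vale.Agent.P297.H839 Vale.Agent.P297.H516 Vale.Agent.P297.H878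

theorem map_sext {k B : Type} [Field k] [Field B] (φ : k →+* B) (t a b c d : k) (x : B) :
    ((sext t a b c d).map φ).eval x =
      (φ t)⁻¹ * (pp (φ a) (φ b) x * qq (φ c) (φ d) x) := by
  unfold sext pp qq
  simp only [Polynomial.map_mul, Polynomial.map_add, Polynomial.map_pow, Polynomial.map_C,
    Polynomial.map_X, Polynomial.map_ofNat, Polynomial.map_one, eval_mul, eval_add, eval_pow,
    eval_C, eval_X, eval_ofNat, eval_one, map_inv₀]

/-- The statement `t_one` without torsion. -/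
theorem three_split {K : Type} [Field K] [Algebra ℂ K] (l x y : K)
    (hind : AlgebraicIndependent ℂ ![l, x])
    (t a b c d : K) (ht : t ∈ IntermediateField.adjoin ℂ {l})
    (ha : a ∈ IntermediateField.adjoin ℂ {l}) (hb : b ∈ IntermediateField.adjoin ℂ {l})
    (hc : c ∈ IntermediateField.adjoin ℂ {l}) (hd : d ∈ IntermediateField.adjoin ℂ {l})
    (ht0 : t ≠ 0) (h : 12 * a * c + 16 * b * d = 1) (hD₁ : a ^ 3 + b ^ 2 ≠ 0)
    (hD₂ : c ^ 3 + d ^ 2 ≠ 0) (hy : t * y ^ 2 = pp a b x * qq c d x)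
    (htop : IntermediateField.adjoin ℂ {l, x, y} = ⊤)
    (h1 : IsRational (IntermediateField.adjoin ℂ
      {l, (c - 2 * d * x) / pp a b x, y * mm c d x / pp a b x ^ 2}))
    (h2 : IsRational (IntermediateField.adjoin ℂ
      {l, x ^ 2 * (a * x - 2 * b) / qq c d x, y * nn a b x / qq c d x ^ 2})) :
    PointsEquivalent K := by
  classical
  haveI : CharZero K := charZero_of_injective_algebraMap (algebraMap ℂ K).injective
  haveI : CharZero (IntermediateField.adjoin ℂ ({l} : Set K)) :=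
    charZero_of_injective_algebraMap (algebraMap ℂ _).injective
  let t₀ : IntermediateField.adjoin ℂ ({l} : Set K) := ⟨t, ht⟩
  let a₀ : IntermediateField.adjoin ℂ ({l} : Set K) := ⟨a, ha⟩
  let b₀ : IntermediateField.adjoin ℂ ({l} : Set K) := ⟨b, hb⟩
  let c₀ : IntermediateField.adjoin ℂ ({l} : Set K) := ⟨c, hc⟩
  let d₀ : IntermediateField.adjoin ℂ ({l} : Set K) := ⟨d, hd⟩
  have ht0' : t₀ ≠ 0 := fun h3 => ht0 (congrArg Subtype.val h3)
  have hrel : 12 * a₀ * c₀ + 16 * b₀ * d₀ = 1 := Subtype.ext h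
  have hE₁ : a₀ ^ 3 + b₀ ^ 2 ≠ 0 := fun h3 => hD₁ (congrArg Subtype.val h3)
  have hE₂ : c₀ ^ 3 + d₀ ^ 2 ≠ 0 := fun h3 => hD₂ (congrArg Subtype.val h3)
  obtain ⟨five, six⟩ := sext_degree (a := a₀) (b := b₀) ht0' hE₂
  have hP : Pencil l x y (sext t₀ a₀ b₀ c₀ d₀) := by
    refine ⟨hind, (sext_sep ht0' hrel hE₁ hE₂).squarefree, five, six, ?_, htop⟩
    rw [Polynomial.aeval_def, ← Polynomial.eval_map, map_sext]
    change y ^ 2 = t⁻¹ * (pp a b x * qq c d x)
    rw [← hy]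
    field_simp
  -- the points
  let N := AlgebraicClosure K
  haveI : CharZero N := charZero_of_injective_algebraMap (algebraMap ℂ N).injective
  let φ₀ : K →ₐ[ℂ] N := IsScalarTower.toAlgHom ℂ K N
  have hinj : Function.Injective φ₀ := φ₀.toRingHom.injective
  have hind' : AlgebraicIndependent ℂ ![φ₀ l, φ₀ x] := by
    have h3 := hind.map' (f := φ₀) hinj
    have h4 : (φ₀ ∘ ![l, x]) = ![φ₀ l, φ₀ x] := by
      ext i
      fin_cases i <;> rfl
    rw [h4] at h3
    exact h3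
  obtain ⟨L, hcl, hlL, hL⟩ := exists_closure (hind'.transcendental 0)
  have hmemL : ∀ e ∈ IntermediateField.adjoin ℂ {l}, φ₀ e ∈ L := by
    intro e he
    have h3 : (IntermediateField.adjoin ℂ {l}).map φ₀ ≤ L := by
      rw [IntermediateField.adjoin_map, Set.image_singleton]
      exact hlL
    exact h3 ⟨e, he, rfl⟩
  have hz : φ₀ x ∉ L := (hL _).1 hind'
  have h' : 12 * φ₀ a * φ₀ c + 16 * φ₀ b * φ₀ d = 1 := by
    have h3 := congrArg φ₀ h
    simp only [map_add, map_mul, map_ofNat, map_one] at h3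
    exact h3
  have hD₁' : φ₀ a ^ 3 + φ₀ b ^ 2 ≠ 0 := by
    intro h3
    apply hD₁
    apply hinj
    rw [map_zero, map_add, map_pow, map_pow]
    exact h3
  have hD₂' : φ₀ c ^ 3 + φ₀ d ^ 2 ≠ 0 := by
    intro h3
    apply hD₂
    apply hinj
    rw [map_zero, map_add, map_pow, map_pow]
    exact h3
  have h0pp : φ₀ (pp a b x) = pp (φ₀ a) (φ₀ b) (φ₀ x) := map_pp φ₀.toRingHom _ _ _
  have h0qq : φ₀ (qq c d x) = qq (φ₀ c) (φ₀ d) (φ₀ x) := map_qq φ₀.toRingHom _ _ _
  have h0mm : φ₀ (mm c d x) = mm (φ₀ c) (φ₀ d) (φ₀ x) := map_mm φ₀.toRingHom _ _ _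
  have h0nn : φ₀ (nn a b x) = nn (φ₀ a) (φ₀ b) (φ₀ x) := map_nn φ₀.toRingHom _ _ _
  have haL := hmemL a ha
  have hbL := hmemL b hb
  have hcL := hmemL c hc
  have hdL := hmemL d hd
  have hy' : φ₀ t * φ₀ y ^ 2 = pp (φ₀ a) (φ₀ b) (φ₀ x) * qq (φ₀ c) (φ₀ d) (φ₀ x) := by
    have h3 := congrArg φ₀ hy
    rw [map_mul, map_pow, map_mul, h0pp, h0qq] at h3
    exact h3
  have htN : φ₀ t ≠ 0 := by
    intro h3
    exact ht0 (hinj (h3.trans (map_zero φ₀).symm))
  have hz0 := z_ne L hz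
  have hs0 := s_ne L hcl hcL hdL h' hz
  have hr0 := r_ne L hcl haL hbL h' hz
  have hp0 := p_ne L hcl haL hbL hz
  have hq0 := q_ne L hcl hcL hdL hz
  have hm0 := m_ne L hcl hcL hdL hz
  have hn0 := n_ne L hcl haL hbL hz
  have hpK : pp a b x ≠ 0 := by
    intro h3
    rw [h3, map_zero] at h0pp
    exact hp0 h0pp.symm
  have hqK : qq c d x ≠ 0 := by
    intro h3
    rw [h3, map_zero] at h0qq
    exact hq0 h0qq.symm
  have hmK : mm c d x ≠ 0 := by
    intro h3
    rw [h3, map_zero] at h0mm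
    exact hm0 h0mm.symm
  have hnK : nn a b x ≠ 0 := by
    intro h3
    rw [h3, map_zero] at h0nn
    exact hn0 h0nn.symm
  have hxK : x ≠ 0 := by
    intro h3
    apply hz0
    rw [h3, map_zero]
  have hcdx : c - 2 * d * x ≠ 0 := by
    intro h3
    apply hs0
    have h4 := congrArg φ₀ h3
    rw [map_zero, map_sub, map_mul, map_mul, map_ofNat] at h4
    exact h4
  have habx : a * x - 2 * b ≠ 0 := by
    intro h3
    apply hr0
    have h4 := congrArg φ₀ h3
    rw [map_zero, map_sub, map_mul, map_mul, map_ofNat] at h4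
    exact h4
  obtain ⟨p, hpz, hpinj, hpL, hph, r1, r2, r3, r4, -, -, -, -⟩ :=
    exists_points L hcl haL hbL hcL hdL h' hz hD₁' hD₂'
  have hzero : ∀ i, (p i - φ₀ x) * s1 (φ₀ c) (φ₀ d) (φ₀ x) (p i) *
      s2 (φ₀ a) (φ₀ b) (φ₀ x) (p i) = 0 := by
    intro i
    fin_cases i
    · change (p 0 - φ₀ x) * _ * _ = 0
      rw [hpz, sub_self, zero_mul, zero_mul]
    · change (p 1 - φ₀ x) * s1 (φ₀ c) (φ₀ d) (φ₀ x) (p 1) * _ = 0
      rw [r1, mul_zero, zero_mul]
    · change (p 2 - φ₀ x) * s1 (φ₀ c) (φ₀ d) (φ₀ x) (p 2) * _ = 0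
      rw [r2, mul_zero, zero_mul]
    · change _ * s2 (φ₀ a) (φ₀ b) (φ₀ x) (p 3) = 0
      rw [r3, mul_zero]
    · change _ * s2 (φ₀ a) (φ₀ b) (φ₀ x) (p 4) = 0
      rw [r4, mul_zero]
  have hB : ∀ i, pp (φ₀ a) (φ₀ b) (φ₀ x) * φ₀ x + 2 * pp (φ₀ a) (φ₀ b) (φ₀ x) * p i ≠ 0 := by
    intro i
    have h3 : pp (φ₀ a) (φ₀ b) (φ₀ x) * φ₀ x + 2 * pp (φ₀ a) (φ₀ b) (φ₀ x) * p i =
      pp (φ₀ a) (φ₀ b) (φ₀ x) * (2 * p i + φ₀ x) := by ring
    rw [h3]
    exact mul_ne_zero hp0 (hph i)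
  let lam : IntermediateField.adjoin ℂ ({l} : Set K) →ₐ[ℂ] N :=
    φ₀.comp (IntermediateField.adjoin ℂ ({l} : Set K)).val
  let w : Fin 5 → N := fun i => - ((2 * φ₀ y * φ₀ x + φ₀ y * p i) * pp (φ₀ a) (φ₀ b) (p i)) /
    (pp (φ₀ a) (φ₀ b) (φ₀ x) * φ₀ x + 2 * pp (φ₀ a) (φ₀ b) (φ₀ x) * p i)
  have hw : ∀ i, w i * (pp (φ₀ a) (φ₀ b) (φ₀ x) * φ₀ x + 2 * pp (φ₀ a) (φ₀ b) (φ₀ x) * p i) =
      - ((2 * φ₀ y * φ₀ x + φ₀ y * p i) * pp (φ₀ a) (φ₀ b) (p i)) := fun i =>
    div_mul_cancel₀ _ (hB i)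
  have hw2 : ∀ i, w i ^ 2 = ((sext t₀ a₀ b₀ c₀ d₀).map lam.toRingHom).eval (p i) := by
    intro i
    rw [map_sext]
    change w i ^ 2 = (φ₀ t)⁻¹ * (pp (φ₀ a) (φ₀ b) (p i) * qq (φ₀ c) (φ₀ d) (p i))
    rw [eq_inv_mul_iff_mul_eq₀ htN]
    apply mul_right_cancel₀ (pow_ne_zero 2 (hB i))
    have h3 := sq_value hy' (five' h' (hzero i))
    have h4 := congrArg (fun v => v ^ 2) (hw i)
    linear_combination φ₀ t * h4 + pp (φ₀ a) (φ₀ b) (p i) * h3
  choose φ hφe hφx hφy' using fun i : Fin 5 => hP.emb lam (z' := p i) (y' := w i)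
    ((hL _).2 (hpL i)) (hw2 i)
  have hφy : ∀ i, φ i y * (pp (φ₀ a) (φ₀ b) (φ₀ x) * φ₀ x +
      2 * pp (φ₀ a) (φ₀ b) (φ₀ x) * p i) =
      - ((2 * φ₀ y * φ₀ x + φ₀ y * p i) * pp (φ₀ a) (φ₀ b) (p i)) := by
    intro i
    rw [hφy' i]
    exact hw i
  have hφl' : ∀ i, ∀ e ∈ IntermediateField.adjoin ℂ ({l} : Set K), φ i e = φ₀ e :=
    fun i e he => hφe i ⟨e, he⟩
  have hlmem := IntermediateField.mem_adjoin_simple_self ℂ l
  have hpx0 : ∀ i, pp (φ₀ a) (φ₀ b) (p i) ≠ 0 := fun i => p_ne L hcl haL hbL (hpL i)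
  have hqx0 : ∀ i, qq (φ₀ c) (φ₀ d) (p i) ≠ 0 := fun i => q_ne L hcl hcL hdL (hpL i)
  have hφpp : ∀ i, φ i (pp a b x) = pp (φ₀ a) (φ₀ b) (p i) := by
    intro i
    refine (map_pp (φ i).toRingHom _ _ _).trans ?_
    change pp (φ i a) (φ i b) (φ i x) = _
    rw [hφl' i a ha, hφl' i b hb, hφx]
  have hφqq : ∀ i, φ i (qq c d x) = qq (φ₀ c) (φ₀ d) (p i) := by
    intro i
    refine (map_qq (φ i).toRingHom _ _ _).trans ?_
    change qq (φ i c) (φ i d) (φ i x) = _
    rw [hφl' i c hc, hφl' i d hd, hφx]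
  have hφmm : ∀ i, φ i (mm c d x) = mm (φ₀ c) (φ₀ d) (p i) := by
    intro i
    refine (map_mm (φ i).toRingHom _ _ _).trans ?_
    change mm (φ i c) (φ i d) (φ i x) = _
    rw [hφl' i c hc, hφl' i d hd, hφx]
  have hφnn : ∀ i, φ i (nn a b x) = nn (φ₀ a) (φ₀ b) (p i) := by
    intro i
    refine (map_nn (φ i).toRingHom _ _ _).trans ?_
    change nn (φ i a) (φ i b) (φ i x) = _
    rw [hφl' i a ha, hφl' i b hb, hφx]
  -- memberships
  have hppmem : ∀ F : IntermediateField ℂ K, l ∈ F → x ∈ F → pp a b x ∈ F ∧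
      qq c d x ∈ F ∧ mm c d x ∈ F ∧ nn a b x ∈ F := by
    intro F hlF hxF
    have hle' : IntermediateField.adjoin ℂ {l} ≤ F := by
      rw [IntermediateField.adjoin_le_iff]
      rintro _ rfl
      exact hlF
    have h8 : ∀ n : ℕ, ∀ [n.AtLeastTwo], (OfNat.ofNat n : K) ∈ F := fun n _ => ofNat_mem F n
    have haF := hle' ha
    have hbF := hle' hb
    have hcF := hle' hc
    have hdF := hle' hd
    unfold pp qq mm nn
    refine ⟨?_, ?_, ?_, ?_⟩ <;>
      repeat' first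
        | exact haF | exact hbF | exact hcF | exact hdF | exact hxF | exact F.one_mem
        | apply add_mem | apply sub_mem | apply mul_mem | apply pow_mem | exact h8 _
  obtain ⟨F₁, hF₁⟩ : ∃ F, F = IntermediateField.adjoin ℂ
      {l, (c - 2 * d * x) / pp a b x, y * mm c d x / pp a b x ^ 2} := ⟨_, rfl⟩
  obtain ⟨F₂, hF₂⟩ : ∃ F, F = IntermediateField.adjoin ℂ
      {l, x ^ 2 * (a * x - 2 * b) / qq c d x, y * nn a b x / qq c d x ^ 2} := ⟨_, rfl⟩
  rw [← hF₁] at h1
  rw [← hF₂] at h2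
  have hl1 : l ∈ F₁ := by rw [hF₁]; exact IntermediateField.subset_adjoin _ _ (by simp)
  have hu1 : (c - 2 * d * x) / pp a b x ∈ F₁ := by
    rw [hF₁]; exact IntermediateField.subset_adjoin _ _ (by simp)
  have hv1 : y * mm c d x / pp a b x ^ 2 ∈ F₁ := by
    rw [hF₁]; exact IntermediateField.subset_adjoin _ _ (by simp)
  have hl2 : l ∈ F₂ := by rw [hF₂]; exact IntermediateField.subset_adjoin _ _ (by simp)
  have hu2 : x ^ 2 * (a * x - 2 * b) / qq c d x ∈ F₂ := by
    rw [hF₂]; exact IntermediateField.subset_adjoin _ _ (by simp)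
  have hv2 : y * nn a b x / qq c d x ^ 2 ∈ F₂ := by
    rw [hF₂]; exact IntermediateField.subset_adjoin _ _ (by simp)
  have hle1 : IntermediateField.adjoin ℂ {l} ≤ F₁ := by
    rw [IntermediateField.adjoin_le_iff]
    rintro _ rfl
    exact hl1
  have hle2 : IntermediateField.adjoin ℂ {l} ≤ F₂ := by
    rw [IntermediateField.adjoin_le_iff]
    rintro _ rfl
    exact hl2
  have hx1 : F₁ ⊔ IntermediateField.adjoin ℂ {x} = ⊤ := by
    rw [eq_top_iff, ← htop, IntermediateField.adjoin_le_iff]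
    have hl1' : l ∈ F₁ ⊔ IntermediateField.adjoin ℂ {x} := (le_sup_left : F₁ ≤ _) hl1
    have hx1' : x ∈ F₁ ⊔ IntermediateField.adjoin ℂ {x} :=
      (le_sup_right : IntermediateField.adjoin ℂ {x} ≤ _)
        (IntermediateField.mem_adjoin_simple_self ℂ _)
    obtain ⟨m1, m2, m3, m4⟩ := hppmem _ hl1' hx1'
    rintro k (rfl | rfl | rfl)
    · exact hl1'
    · exact hx1'
    · have h3 : k = k * mm c d x / pp a b x ^ 2 * pp a b x ^ 2 / mm c d x := by
        field_simp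
      rw [h3]
      exact div_mem (mul_mem ((le_sup_left : F₁ ≤ _) hv1) (pow_mem m1 2)) m3
  have hx2 : F₂ ⊔ IntermediateField.adjoin ℂ {x} = ⊤ := by
    rw [eq_top_iff, ← htop, IntermediateField.adjoin_le_iff]
    have hl1' : l ∈ F₂ ⊔ IntermediateField.adjoin ℂ {x} := (le_sup_left : F₂ ≤ _) hl2
    have hx1' : x ∈ F₂ ⊔ IntermediateField.adjoin ℂ {x} :=
      (le_sup_right : IntermediateField.adjoin ℂ {x} ≤ _)
        (IntermediateField.mem_adjoin_simple_self ℂ _)
    obtain ⟨m1, m2, m3, m4⟩ := hppmem _ hl1' hx1'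
    rintro k (rfl | rfl | rfl)
    · exact hl1'
    · exact hx1'
    · have h3 : k = k * nn a b x / qq c d x ^ 2 * qq c d x ^ 2 / nn a b x := by
        field_simp
      rw [h3]
      exact div_mem (mul_mem ((le_sup_left : F₂ ≤ _) hv2) (pow_mem m2 2)) m4
  have hinvmem : IntermediateField.adjoin ℂ {x⁻¹} = IntermediateField.adjoin ℂ {x} := by
    apply le_antisymm
    · rw [IntermediateField.adjoin_le_iff]
      rintro _ rfl
      exact inv_mem (IntermediateField.mem_adjoin_simple_self ℂ x)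
    · rw [IntermediateField.adjoin_le_iff]
      intro k hk
      rw [Set.mem_singleton_iff.1 hk]
      have h3 := inv_mem (IntermediateField.mem_adjoin_simple_self ℂ x⁻¹)
      rw [inv_inv] at h3
      exact h3
  -- the two blocks
  obtain ⟨rk1, tr1⟩ := cubic_trace F₁ x hx1
    ⟨3 * a + 2 * d / ((c - 2 * d * x) / pp a b x), add_mem (mul_mem (ofNat_mem F₁ 3) (hle1 ha))
      (div_mem (mul_mem (ofNat_mem F₁ 2) (hle1 hd)) hu1)⟩
    ⟨2 * b - c / ((c - 2 * d * x) / pp a b x), sub_mem (mul_mem (ofNat_mem F₁ 2) (hle1 hb))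
      (div_mem (hle1 hc) hu1)⟩ (by
      change x ^ 3 + (3 * a + 2 * d / ((c - 2 * d * x) / pp a b x)) * x +
        (2 * b - c / ((c - 2 * d * x) / pp a b x)) = 0
      have h3 : x ^ 3 + (3 * a + 2 * d / ((c - 2 * d * x) / pp a b x)) * x +
        (2 * b - c / ((c - 2 * d * x) / pp a b x)) =
        pp a b x - (c - 2 * d * x) / ((c - 2 * d * x) / pp a b x) := by
        unfold pp
        ring
      rw [h3, div_div_cancel₀ hcdx, sub_self]) ![φ₀, φ 1, φ 2] (by
      have h3 : ∀ i : Fin 3, ∀ k ∈ F₁, ![φ₀, φ 1, φ 2] i k = φ₀ k := by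
        intro i
        rw [hF₁]
        have key : ∀ i : Fin 5, s1 (φ₀ c) (φ₀ d) (φ₀ x) (p i) = 0 → ∀ k ∈
            IntermediateField.adjoin ℂ {l, (c - 2 * d * x) / pp a b x,
              y * mm c d x / pp a b x ^ 2}, φ i k = φ₀ k := by
          intro i hi
          obtain ⟨v1, v2⟩ := v1_value (y₀ := φ₀ y) (y := φ i y) hp0 (hpx0 i) hs0 (hph i) hi h'
            (hφy i)
          apply agree_on_adjoin
          rintro k (rfl | rfl | rfl)
          · exact hφl' i _ hlmem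
          · rw [map_div₀, map_div₀, hφpp, h0pp, map_sub, map_mul, map_mul, map_ofNat, map_sub,
              map_mul, map_mul, map_ofNat, hφl' i c hc, hφl' i d hd, hφx]
            exact v1
          · rw [map_div₀, map_div₀, map_mul, map_mul, map_pow, map_pow, hφpp, h0pp, hφmm, h0mm]
            exact v2
        fin_cases i
        · intro k _
          rfl
        · exact key 1 r1
        · exact key 2 r2
      intro i i' k hk
      rw [h3 i k hk, h3 i' k hk]) (by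
      have h3 : ∀ i : Fin 3, ![φ₀, φ 1, φ 2] i x = p (Fin.castLE (by norm_num) i) := by
        intro i
        fin_cases i
        · exact hpz.symm
        · exact hφx 1
        · exact hφx 2
      intro i i' hi
      have h4 : ![φ₀, φ 1, φ 2] i x = ![φ₀, φ 1, φ 2] i' x := by rw [hi]
      rw [h3, h3] at h4
      exact Fin.castLE_injective _ (hpinj h4))
  obtain ⟨rk2, tr2⟩ := cubic_trace F₂ x⁻¹ (by rw [hinvmem]; exact hx2)
    ⟨3 * c + 2 * b / (x ^ 2 * (a * x - 2 * b) / qq c d x), add_mem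
      (mul_mem (ofNat_mem F₂ 3) (hle2 hc))
      (div_mem (mul_mem (ofNat_mem F₂ 2) (hle2 hb)) hu2)⟩
    ⟨2 * d - a / (x ^ 2 * (a * x - 2 * b) / qq c d x), sub_mem
      (mul_mem (ofNat_mem F₂ 2) (hle2 hd)) (div_mem (hle2 ha) hu2)⟩ (by
      change x⁻¹ ^ 3 + (3 * c + 2 * b / (x ^ 2 * (a * x - 2 * b) / qq c d x)) * x⁻¹ +
        (2 * d - a / (x ^ 2 * (a * x - 2 * b) / qq c d x)) = 0
      have h3 : x⁻¹ ^ 3 + (3 * c + 2 * b / (x ^ 2 * (a * x - 2 * b) / qq c d x)) * x⁻¹ +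
        (2 * d - a / (x ^ 2 * (a * x - 2 * b) / qq c d x)) =
        (qq c d x - (x ^ 2 * (a * x - 2 * b)) / (x ^ 2 * (a * x - 2 * b) / qq c d x)) / x ^ 3 := by
        generalize x ^ 2 * (a * x - 2 * b) / qq c d x = u
        unfold qq
        by_cases hu : u = 0
        · subst hu
          field_simp
          ring
        · field_simp
          ring
      rw [h3, div_div_cancel₀ (mul_ne_zero (pow_ne_zero 2 hxK) habx), sub_self, zero_div])
      ![φ₀, φ 3, φ 4] (by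
      have h3 : ∀ i : Fin 3, ∀ k ∈ F₂, ![φ₀, φ 3, φ 4] i k = φ₀ k := by
        intro i
        rw [hF₂]
        have key : ∀ i : Fin 5, s2 (φ₀ a) (φ₀ b) (φ₀ x) (p i) = 0 → ∀ k ∈
            IntermediateField.adjoin ℂ {l, x ^ 2 * (a * x - 2 * b) / qq c d x,
              y * nn a b x / qq c d x ^ 2}, φ i k = φ₀ k := by
          intro i hi
          obtain ⟨v1, v2⟩ := v2_value (y₀ := φ₀ y) (y := φ i y) hp0 hq0 (hqx0 i)
            (mul_ne_zero (pow_ne_zero 2 hz0) hr0) (hph i) hi h' (hφy i)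
          apply agree_on_adjoin
          rintro k (rfl | rfl | rfl)
          · exact hφl' i _ hlmem
          · rw [map_div₀, map_div₀, hφqq, h0qq, map_mul, map_sub, map_mul, map_mul, map_ofNat,
              map_pow, map_mul, map_sub, map_mul, map_mul, map_ofNat, map_pow, hφl' i a ha,
              hφl' i b hb, hφx]
            exact v1
          · rw [map_div₀, map_div₀, map_mul, map_mul, map_pow, map_pow, hφqq, h0qq, hφnn, h0nn]
            exact v2
        fin_cases i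
        · intro k _
          rfl
        · exact key 3 r3
        · exact key 4 r4
      intro i i' k hk
      rw [h3 i k hk, h3 i' k hk]) (by
      have h3 : ∀ i : Fin 3, ![φ₀, φ 3, φ 4] i x = p (![0, 3, 4] i) := by
        intro i
        fin_cases i
        · exact hpz.symm
        · exact hφx 3
        · exact hφx 4
      intro i i' hi
      have h4 : ![φ₀, φ 3, φ 4] i x = ![φ₀, φ 3, φ 4] i' x := by rw [hi]
      rw [h3, h3] at h4
      have h5 := hpinj h4
      fin_cases i <;> fin_cases i' <;> first | rfl | exact absurd h5 (by decide))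
  -- the two maps
  obtain ⟨P₁, hP₁⟩ : ∃ P : (IntermediateField.adjoin ℂ ({l} : Set K))[X],
    P = Polynomial.C c₀ - 2 * Polynomial.C d₀ * X := ⟨_, rfl⟩
  obtain ⟨Q₁, hQ₁⟩ : ∃ P : (IntermediateField.adjoin ℂ ({l} : Set K))[X],
    P = pp (Polynomial.C a₀) (Polynomial.C b₀) X := ⟨_, rfl⟩
  obtain ⟨P₂, hP₂⟩ : ∃ P : (IntermediateField.adjoin ℂ ({l} : Set K))[X],
    P = X ^ 2 * (Polynomial.C a₀ * X - 2 * Polynomial.C b₀) := ⟨_, rfl⟩
  obtain ⟨Q₂, hQ₂⟩ : ∃ P : (IntermediateField.adjoin ℂ ({l} : Set K))[X],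
    P = qq (Polynomial.C c₀) (Polynomial.C d₀) X := ⟨_, rfl⟩
  have eP₁ : aeval x P₁ = c - 2 * d * x := by
    simp only [hP₁, map_sub, map_mul, map_ofNat, aeval_C, aeval_X]
    rfl
  have eQ₁ : aeval x Q₁ = pp a b x := by
    simp only [hQ₁, pp, map_add, map_mul, map_pow, map_ofNat, aeval_C, aeval_X]
    rfl
  have eP₂ : aeval x P₂ = x ^ 2 * (a * x - 2 * b) := by
    simp only [hP₂, map_sub, map_mul, map_pow, map_ofNat, aeval_C, aeval_X]
    rfl
  have eQ₂ : aeval x Q₂ = qq c d x := by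
    simp only [hQ₂, qq, map_add, map_mul, map_pow, map_ofNat, map_one, aeval_C, aeval_X]
    rfl
  have eJ₁ : aeval x (derivative P₁ * Q₁ - P₁ * derivative Q₁) = mm c d x / 4 := by
    have h3 : derivative P₁ = - (2 * Polynomial.C d₀) := by
      simp only [hP₁, derivative_sub, derivative_mul, derivative_C, derivative_X, derivative_ofNat]
      ring
    have h4 : derivative Q₁ = 3 * X ^ 2 + 3 * Polynomial.C a₀ := by
      simp only [hQ₁, pp, derivative_add, derivative_X_pow, derivative_mul, derivative_C,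
        derivative_X, derivative_ofNat, Nat.cast_ofNat, map_ofNat]
      ring
    rw [map_sub, map_mul, map_mul, eP₁, eQ₁, h3, h4]
    simp only [map_neg, map_add, map_mul, map_pow, map_ofNat, aeval_C, aeval_X]
    change - (2 * d) * pp a b x - (c - 2 * d * x) * (3 * x ^ 2 + 3 * a) = _
    unfold pp mm
    linear_combination - h / 4
  have eJ₂ : aeval x (derivative P₂ * Q₂ - P₂ * derivative Q₂) = x * nn a b x / 4 := by
    have h3 : derivative P₂ = 2 * X * (Polynomial.C a₀ * X - 2 * Polynomial.C b₀) +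
        X ^ 2 * Polynomial.C a₀ := by
      simp only [hP₂, derivative_sub, derivative_mul, derivative_C, derivative_X, derivative_ofNat,
        derivative_X_pow, Nat.cast_ofNat, map_ofNat]
      ring
    have h4 : derivative Q₂ = 6 * Polynomial.C d₀ * X ^ 2 + 6 * Polynomial.C c₀ * X := by
      simp only [hQ₂, qq, derivative_add, derivative_X_pow, derivative_mul, derivative_C,
        derivative_one, derivative_ofNat, Nat.cast_ofNat, map_ofNat]
      ring
    rw [map_sub, map_mul, map_mul, eP₂, eQ₂, h3, h4]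
    simp only [map_sub, map_add, map_mul, map_pow, map_ofNat, aeval_C, aeval_X]
    change (2 * x * (a * x - 2 * b) + x ^ 2 * a) * qq c d x - x ^ 2 * (a * x - 2 * b) *
      (6 * d * x ^ 2 + 6 * c * x) = _
    unfold qq nn
    linear_combination x ^ 4 / 4 * h
  have h4 : (4 : K) ≠ 0 := by norm_num
  refine split_pencil hP F₁ F₂ h1 h2 hl1 hl2 hx1 hx2 rk1 rk2 (by norm_num) (by norm_num)
    (by decide) P₁ Q₁ P₂ Q₂ (by rw [eQ₁]; exact hpK) (by rw [eQ₂]; exact hqK)
    (by rw [eJ₁]; exact div_ne_zero hmK h4)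
    (by rw [eJ₂]; exact div_ne_zero (mul_ne_zero hxK hnK) h4) (by rw [eP₁, eQ₁]; exact hu1)
    (by rw [eP₂, eQ₂]; exact hu2) ?_ ?_ tr1 tr2
  · rw [eJ₁, eQ₁]
    have h3 : y * (mm c d x / 4 / pp a b x ^ 2) = y * mm c d x / pp a b x ^ 2 / 4 := by
      ring
    rw [h3]
    exact div_mem hv1 (ofNat_mem F₁ 4)
  · rw [eJ₂, eQ₂]
    have h3 : y * (x * nn a b x / 4 / qq c d x ^ 2) / x = y * nn a b x / qq c d x ^ 2 / 4 := by
      field_simp
    rw [h3]
    exact div_mem hv2 (ofNat_mem F₂ 4)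

end Vale.Agent.P297.Gen
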