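import Vale.Agent.P297.H878.Rthree

/-!
Principal divisors on a pencil of hyperelliptic curves.
-/

set_option linter.style.haveILetI false
set_option linter.unusedSectionVars false

open CategoryTheory AlgebraicGeometry IntermediateField Polynomial

namespace Vale.Agent.P297.Gen

open Vale.Agent.P297 Vale.Agent.P297.H839 Vale.Agent.P297.H516 Vale.Agent.P297.H878

/-- A point of `K = ℂ(l, x)(y)`, `y² = F(x)`, with values in a ring. -/
theorem embed_gen {K B : Type} [Field K] [Algebra ℂ K] [CommRing B] [Algebra ℂ B]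
    (l x y : K) (hind : AlgebraicIndependent ℂ ![l, x])
    (F : (IntermediateField.adjoin ℂ {l})[X]) (hy : y ^ 2 = aeval x F)
    (hyK : y ∉ IntermediateField.adjoin ℂ (Set.range ![l, x]))
    (htop : IntermediateField.adjoin ℂ {l, x, y} = ⊤)
    (lam : IntermediateField.adjoin ℂ {l} →ₐ[ℂ] B) (x' y' : B)
    (hu : ∀ w : MvPolynomial (Fin 2) ℂ, w ≠ 0 → IsUnit (MvPolynomial.aeval
      ![lam ⟨l, IntermediateField.mem_adjoin_simple_self ℂ l⟩, x'] w))
    (hy' : y' ^ 2 = F.eval₂ lam.toRingHom x') :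
    ∃ Θ : K →ₐ[ℂ] B, (∀ e : IntermediateField.adjoin ℂ {l}, Θ e = lam e) ∧ Θ x = x' ∧
      Θ y = y' := by
  obtain ⟨τ, hτ⟩ := exists_tau ![l, x] hind
    ![lam ⟨l, IntermediateField.mem_adjoin_simple_self ℂ l⟩, x'] hu
  have hl0 : l ∈ IntermediateField.adjoin ℂ (Set.range ![l, x]) :=
    IntermediateField.subset_adjoin _ _ ⟨0, rfl⟩
  have hx0 : x ∈ IntermediateField.adjoin ℂ (Set.range ![l, x]) :=
    IntermediateField.subset_adjoin _ _ ⟨1, rfl⟩
  have hle : IntermediateField.adjoin ℂ {l} ≤ IntermediateField.adjoin ℂ (Set.range ![l, x]) := by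
    rw [IntermediateField.adjoin_le_iff]
    rintro _ rfl
    exact hl0
  let inc := IntermediateField.inclusion hle
  have hτl : τ.comp inc = lam := by
    apply agree_on_gen
    rintro _ rfl
    exact hτ 0
  have hτe : ∀ e : IntermediateField.adjoin ℂ {l}, τ (inc e) = lam e :=
    fun e => DFunLike.congr_fun hτl e
  let x₀ : IntermediateField.adjoin ℂ (Set.range ![l, x]) := ⟨x, hx0⟩
  have hτx : τ x₀ = x' := hτ 1
  let w : IntermediateField.adjoin ℂ (Set.range ![l, x]) := F.eval₂ inc.toRingHom x₀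
  have hw : (w : K) = y ^ 2 := by
    rw [hy, aeval_def]
    have h1 := Polynomial.hom_eval₂ F inc.toRingHom
      (IntermediateField.adjoin ℂ (Set.range ![l, x])).val.toRingHom x₀
    exact h1
  have hy2 : y ^ 2 ∈ IntermediateField.adjoin ℂ (Set.range ![l, x]) := by
    rw [← hw]
    exact w.2
  have hspan : ∀ k : K, ∃ α ∈ IntermediateField.adjoin ℂ (Set.range ![l, x]),
      ∃ β ∈ IntermediateField.adjoin ℂ (Set.range ![l, x]), k = α + β * y :=
    exists_quad _ y hy2 {l, x, y} (by
      rintro k (rfl | rfl | rfl)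
      · exact Or.inl hl0
      · exact Or.inl hx0
      · exact Or.inr rfl) htop
  have key : y' ^ 2 = τ ⟨y ^ 2, hy2⟩ := by
    have h1 : (⟨y ^ 2, hy2⟩ : IntermediateField.adjoin ℂ (Set.range ![l, x])) = w :=
      Subtype.ext hw.symm
    rw [h1, hy']
    have h2 := Polynomial.hom_eval₂ F inc.toRingHom τ.toRingHom x₀
    have h3 : τ.toRingHom.comp inc.toRingHom = lam.toRingHom := by
      apply RingHom.ext
      intro e
      exact hτe e
    rw [h3] at h2
    change _ = τ.toRingHom w
    rw [h2]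
    change _ = F.eval₂ lam.toRingHom (τ x₀)
    rw [hτx]
  obtain ⟨Θ, hΘ, hΘy⟩ := exists_theta _ y hy2 hyK hspan τ y' key
  refine ⟨Θ, ?_, ?_, hΘy⟩
  · intro e
    have h1 := hΘ (inc e)
    rw [hτe] at h1
    exact h1
  · have h1 := hΘ x₀
    rw [hτx] at h1
    exact h1

/-- Lifting a polynomial with prescribed coefficients. -/
theorem exists_lift_poly {R N : Type} [CommRing R] [CommRing N] (φ : R →+* N) (A : N[X])
    (a : ℕ → R) (ha : ∀ i, i ≤ A.natDegree → φ (a i) = A.coeff i) :
    ∃ A' : R[X], A'.map φ = A ∧ A'.natDegree ≤ A.natDegree := by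
  refine ⟨∑ i ∈ Finset.range (A.natDegree + 1), Polynomial.C (a i) * X ^ i, ?_, ?_⟩
  · rw [Polynomial.map_sum]
    conv_rhs => rw [A.as_sum_range_C_mul_X_pow]
    refine Finset.sum_congr rfl fun i hi => ?_
    rw [Polynomial.map_mul, Polynomial.map_C, Polynomial.map_pow, Polynomial.map_X,
      ha i (Nat.lt_succ_iff.1 (Finset.mem_range.1 hi))]
  · apply Polynomial.natDegree_sum_le_of_forall_le
    intro i hi
    refine (Polynomial.natDegree_C_mul_X_pow_le _ _).trans ?_
    exact Nat.lt_succ_iff.1 (Finset.mem_range.1 hi)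

section

variable {S : Scheme.{0}} {f : S ⟶ Spec (.of ℂ)} [IsProper f] {C : Type} [CommRing C] [Algebra ℂ C]
  [Algebra.FiniteType ℂ C] {j : Spec (.of C) ⟶ S}
  {hj : j ≫ f = Spec.map (CommRingCat.ofHom (algebraMap ℂ C))}

/-- The zeros of a function `α(x) + β(x) y` on a pencil of hyperelliptic curves. -/
theorem div_good_fin {n : ℕ} {K N : Type} [Field K] [Algebra ℂ K] [Field N] [Algebra ℂ N]
    (l x y : K) (hind : AlgebraicIndependent ℂ ![l, x])
    (fK : (IntermediateField.adjoin ℂ {l})[X]) (hy : y ^ 2 = aeval x fK)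
    (hyK : y ∉ IntermediateField.adjoin ℂ (Set.range ![l, x]))
    (htop : IntermediateField.adjoin ℂ {l, x, y} = ⊤)
    (lam : IntermediateField.adjoin ℂ {l} →ₐ[ℂ] N) (al be : N[X])
    (hal : 2 * al.natDegree ≤ n) (hbe : 2 * be.natDegree + fK.natDegree ≤ n) (c : N) (hc : c ≠ 0)
    (φ : Fin n → (K →ₐ[ℂ] N)) (hφ : ∀ i (e : IntermediateField.adjoin ℂ {l}), φ i e = lam e)
    (hinj : Function.Injective fun i => φ i x)
    (hn : al ^ 2 - be ^ 2 * fK.map lam.toRingHom =
      Polynomial.C c * ∏ i, (X - Polynomial.C (φ i x)))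
    (hb : ∀ i, be.eval (φ i x) ≠ 0)
    (hφy : ∀ i, al.eval (φ i x) + be.eval (φ i x) * φ i y = 0) (ι : C →ₐ[ℂ] K) :
    ∑ i, Finsupp.single ((φ i).comp ι) (1 : ℤ) ∈ Good f j hj (Rat f) N := by
  classical
  -- the parameters
  let prm : (Unit ⊕ (Fin (al.natDegree + 1) ⊕ Fin (be.natDegree + 1))) → N :=
    Sum.elim (fun _ => lam ⟨l, IntermediateField.mem_adjoin_simple_self ℂ l⟩)
      (Sum.elim (fun k : Fin (al.natDegree + 1) => al.coeff (k : ℕ))
        (fun k : Fin (be.natDegree + 1) => be.coeff (k : ℕ)))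
  obtain ⟨g, hg⟩ : ∃ g : MvPolynomial (Unit ⊕ (Fin (al.natDegree + 1) ⊕ Fin (be.natDegree + 1)))
      ℂ →ₐ[ℂ] N, g = MvPolynomial.aeval prm := ⟨_, rfl⟩
  obtain ⟨P, hP⟩ : ∃ P : (Unit ⊕ (Fin (al.natDegree + 1) ⊕ Fin (be.natDegree + 1))) → Loc g,
      ∀ k, toN g (P k) = prm k := by
    refine ⟨fun k => algebraMap (MvPolynomial _ ℂ) (Loc g) (MvPolynomial.X k), fun k => ?_⟩
    rw [toN_algebraMap, hg, MvPolynomial.aeval_X]
  have hPl : toN g (P (Sum.inl ())) =
      lam ⟨l, IntermediateField.mem_adjoin_simple_self ℂ l⟩ := hP _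
  have hlind : AlgebraicIndependent ℂ ![l] := by
    have h1 := hind.transcendental 0
    exact algebraicIndependent_unique_type_iff.2 h1
  have hrange : Set.range ![l] = {l} := by simp
  have hadj : IntermediateField.adjoin ℂ {l} ≤ IntermediateField.adjoin ℂ (Set.range ![l]) := by
    rw [hrange]
  have hinjlam : Function.Injective lam := lam.toRingHom.injective
  obtain ⟨lam₀, hlam₀⟩ := exists_tau ![l] hlind ![P (Sum.inl ())] (by
    intro w hw
    apply isUnit_loc
    have h1 : (toN g).comp (MvPolynomial.aeval (R := ℂ) ![P (Sum.inl ())]) =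
        lam.comp (MvPolynomial.aeval
          ![(⟨l, IntermediateField.mem_adjoin_simple_self ℂ l⟩ :
            IntermediateField.adjoin ℂ {l})]) := by
      apply MvPolynomial.algHom_ext
      intro i
      fin_cases i
      rw [AlgHom.comp_apply, AlgHom.comp_apply, MvPolynomial.aeval_X, MvPolynomial.aeval_X]
      exact hPl
    have h2 := DFunLike.congr_fun h1 w
    rw [AlgHom.comp_apply, AlgHom.comp_apply] at h2
    rw [h2]
    intro h3
    apply hw
    apply hlind
    rw [map_zero]
    have h4 := hinjlam (h3.trans (map_zero lam).symm)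
    have h5 := congrArg (IntermediateField.adjoin ℂ {l}).val h4
    rw [map_zero] at h5
    have h6 : (IntermediateField.adjoin ℂ {l}).val.comp (MvPolynomial.aeval (R := ℂ)
        ![(⟨l, IntermediateField.mem_adjoin_simple_self ℂ l⟩ :
            IntermediateField.adjoin ℂ {l})]) = MvPolynomial.aeval ![l] := by
      apply MvPolynomial.algHom_ext
      intro i
      fin_cases i
      rw [AlgHom.comp_apply, MvPolynomial.aeval_X, MvPolynomial.aeval_X]
      rfl
    have h7 := DFunLike.congr_fun h6 w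
    rw [AlgHom.comp_apply] at h7
    rw [← h7]
    exact h5)
  obtain ⟨lam', hlam'⟩ : ∃ lam' : IntermediateField.adjoin ℂ {l} →ₐ[ℂ] Loc g,
      ∀ e, toN g (lam' e) = lam e := by
    refine ⟨lam₀.comp (IntermediateField.inclusion hadj), fun e => ?_⟩
    have h1 : (toN g).comp (lam₀.comp (IntermediateField.inclusion hadj)) = lam := by
      apply agree_on_gen
      rintro _ rfl
      change toN g (lam₀ ⟨_, _⟩) = lam _
      refine (congrArg (toN g) (hlam₀ 0)).trans hPl
    exact DFunLike.congr_fun h1 e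
  have hcomp : (toN g).toRingHom.comp lam'.toRingHom = lam.toRingHom := RingHom.ext hlam'
  -- the polynomials
  obtain ⟨A, hA, hAd⟩ := exists_lift_poly (toN g).toRingHom al
    (fun i => if h : i < al.natDegree + 1 then P (Sum.inr (Sum.inl ⟨i, h⟩)) else 0) (by
      intro i hi
      rw [dif_pos (Nat.lt_succ_of_le hi)]
      exact hP _)
  obtain ⟨B', hB, hBd⟩ := exists_lift_poly (toN g).toRingHom be
    (fun i => if h : i < be.natDegree + 1 then P (Sum.inr (Sum.inr ⟨i, h⟩)) else 0) (by
      intro i hi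
      rw [dif_pos (Nat.lt_succ_of_le hi)]
      exact hP _)
  obtain ⟨G, hG⟩ : ∃ G : (Loc g)[X], G = A ^ 2 - B' ^ 2 * fK.map lam'.toRingHom := ⟨_, rfl⟩
  have hGmap : G.map (toN g).toRingHom =
      Polynomial.C c * ∏ i, (X - Polynomial.C (φ i x)) := by
    rw [hG, Polynomial.map_sub, Polynomial.map_pow, Polynomial.map_mul, Polynomial.map_pow,
      Polynomial.map_map, hcomp, hA, hB]
    exact hn
  have hGdeg : G.natDegree ≤ n := by
    rw [hG]
    refine (Polynomial.natDegree_sub_le _ _).trans (max_le ?_ ?_)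
    · exact (Polynomial.natDegree_pow_le.trans (Nat.mul_le_mul_left 2 hAd)).trans hal
    · refine (Polynomial.natDegree_mul_le).trans (le_trans (Nat.add_le_add ?_ ?_) hbe)
      · exact Polynomial.natDegree_pow_le.trans (Nat.mul_le_mul_left 2 hBd)
      · exact Polynomial.natDegree_map_le
  have hprodm : (∏ i, (X - Polynomial.C (φ i x))).Monic :=
    Polynomial.monic_prod_of_monic _ _ fun i _ => monic_X_sub_C _
  have hprodd : (∏ i, (X - Polynomial.C (φ i x))).natDegree = n := by
    rw [Polynomial.natDegree_prod_of_monic _ _ fun i _ => monic_X_sub_C _]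
    simp
  have hGn : toN g (G.coeff n) = c := by
    have h1 := congrArg (fun p : N[X] => p.coeff n) hGmap
    simp only [Polynomial.coeff_map, Polynomial.coeff_C_mul] at h1
    have h2 : (∏ i, (X - Polynomial.C (φ i x))).coeff n = 1 := by
      have h3 := hprodm.coeff_natDegree
      rw [hprodd] at h3
      exact h3
    rw [h2, mul_one] at h1
    exact h1
  have hGu : IsUnit (G.coeff n) := by
    apply isUnit_loc
    rw [hGn]
    exact hc
  obtain ⟨w, hw⟩ := hGu.exists_left_inv
  obtain ⟨F, hF⟩ : ∃ F : (Loc g)[X], F = Polynomial.C w * G := ⟨_, rfl⟩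
  have hFd : F.natDegree ≤ n := by
    rw [hF]
    exact (Polynomial.natDegree_C_mul_le _ _).trans hGdeg
  have hFm : F.Monic := by
    apply Polynomial.monic_of_natDegree_le_of_coeff_eq_one n hFd
    rw [hF, Polynomial.coeff_C_mul]
    exact hw
  have hprod : F.map (toN g).toRingHom = ∏ i, (X - Polynomial.C (φ i x)) := by
    rw [hF, Polynomial.map_mul, hGmap, Polynomial.map_C, ← mul_assoc, ← Polynomial.C_mul]
    have h1 := congrArg (toN g) hw
    rw [map_mul, hGn, map_one] at h1
    change Polynomial.C (toN g w * c) * _ = _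
    rw [h1, Polynomial.C_1, one_mul]
  -- the point
  let B := AdjoinRoot F
  let x' : B := AdjoinRoot.root F
  let of' : Loc g →ₐ[ℂ] B := AdjoinRoot.ofAlgHom ℂ F
  have hBu : IsUnit (B'.eval₂ (AdjoinRoot.of F) x') := by
    have h1 := isUnit_adjoinRoot hFm (fun i => φ i x) hprod B' (by
      intro i
      have h2 : B'.eval₂ (toN g).toRingHom (φ i x) = be.eval (φ i x) := by
        have h3 := Polynomial.eval_map (p := B') (toN g).toRingHom (φ i x)
        rw [hB] at h3
        exact h3.symm
      rw [h2]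
      exact hb i)
    have h2 : AdjoinRoot.mk F B' = B'.eval₂ (AdjoinRoot.of F) x' := by
      rw [← AdjoinRoot.aeval_eq]
      rfl
    rw [h2] at h1
    exact h1
  obtain ⟨v, hv⟩ := hBu.exists_left_inv
  have hrel : (A.eval₂ (AdjoinRoot.of F) x') ^ 2 = (B'.eval₂ (AdjoinRoot.of F) x') ^ 2 *
      fK.eval₂ (of'.comp lam').toRingHom x' := by
    have h1 : (Polynomial.C w * G).eval₂ (AdjoinRoot.of F) (AdjoinRoot.root F) = 0 := by
      rw [← hF]
      exact AdjoinRoot.eval₂_root F
    rw [Polynomial.eval₂_mul, Polynomial.eval₂_C] at h1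
    have h3 : IsUnit (AdjoinRoot.of F w) := by
      apply IsUnit.map
      exact IsUnit.of_mul_eq_one _ hw
    have h4 := (h3.mul_right_eq_zero).1 h1
    rw [hG, Polynomial.eval₂_sub, Polynomial.eval₂_mul, Polynomial.eval₂_pow,
      Polynomial.eval₂_pow, Polynomial.eval₂_map] at h4
    exact sub_eq_zero.1 h4
  have hu2 : ∀ w : MvPolynomial (Fin 2) ℂ, w ≠ 0 → IsUnit (MvPolynomial.aeval
      ![(of'.comp lam') ⟨l, IntermediateField.mem_adjoin_simple_self ℂ l⟩, x'] w) := by
    intro w hw
    have h1 := isUnit_adjoinRoot hFm (fun i => φ i x) hprod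
      (MvPolynomial.aeval ![Polynomial.C (lam' ⟨l, IntermediateField.mem_adjoin_simple_self ℂ l⟩),
        (X : (Loc g)[X])] w) (by
      intro i
      have h2 : ((Polynomial.eval₂AlgHom (toN g) (φ i x) (fun _ => Commute.all _ _)).comp
          (MvPolynomial.aeval (R := ℂ) ![Polynomial.C (lam' ⟨l,
            IntermediateField.mem_adjoin_simple_self ℂ l⟩), (X : (Loc g)[X])])) =
          (φ i).comp (MvPolynomial.aeval ![l, x]) := by
        apply MvPolynomial.algHom_ext
        intro k
        rw [AlgHom.comp_apply, AlgHom.comp_apply, MvPolynomial.aeval_X, MvPolynomial.aeval_X]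
        fin_cases k
        · change Polynomial.eval₂ _ _ (Polynomial.C (lam' _)) = φ i l
          rw [eval₂_C]
          change toN g (lam' _) = _
          rw [hlam']
          exact (hφ i ⟨l, _⟩).symm
        · change Polynomial.eval₂ _ _ X = φ i x
          rw [eval₂_X]
      have h3 := DFunLike.congr_fun h2 w
      rw [AlgHom.comp_apply, AlgHom.comp_apply] at h3
      intro h4
      apply hw
      apply hind
      rw [map_zero]
      apply (φ i).toRingHom.injective
      rw [map_zero]
      exact h3.symm.trans h4)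
    have h2 : ((AdjoinRoot.mkₐ F).restrictScalars ℂ).comp (MvPolynomial.aeval (R := ℂ)
        ![Polynomial.C (lam' ⟨l, IntermediateField.mem_adjoin_simple_self ℂ l⟩),
          (X : (Loc g)[X])]) = MvPolynomial.aeval
        ![(of'.comp lam') ⟨l, IntermediateField.mem_adjoin_simple_self ℂ l⟩, x'] := by
      apply MvPolynomial.algHom_ext
      intro k
      rw [AlgHom.comp_apply, MvPolynomial.aeval_X, MvPolynomial.aeval_X]
      fin_cases k
      · change AdjoinRoot.mk F (Polynomial.C (lam' _)) = of' (lam' _)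
        rw [AdjoinRoot.mk_C]
        rfl
      · exact AdjoinRoot.mk_X
    rw [← h2]
    exact h1
  obtain ⟨Θ, hΘ, hΘx, hΘy⟩ := embed_gen l x y hind fK hy hyK htop (of'.comp lam') x'
    (-(A.eval₂ (AdjoinRoot.of F) x' * v)) hu2 (by
      linear_combination v ^ 2 * hrel + (fK.eval₂ (of'.comp lam').toRingHom x' *
        (v * B'.eval₂ (AdjoinRoot.of F) x' + 1)) * hv)
  -- the evaluations
  have hFev : ∀ i, F.eval₂ (toN g).toRingHom (φ i x) = 0 := by
    intro i
    have h1 : (F.map (toN g).toRingHom).eval (φ i x) = 0 := by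
      rw [hprod, Polynomial.eval_prod]
      exact Finset.prod_eq_zero (Finset.mem_univ i) (by simp)
    rwa [Polynomial.eval_map] at h1
  let ev : Fin n → (B →ₐ[ℂ] N) := fun i => AdjoinRoot.liftAlgHom F (toN g) (φ i x) (hFev i)
  have hevof : ∀ i r, ev i (AdjoinRoot.of F r) = toN g r := fun i r =>
    AdjoinRoot.liftAlgHom_of F (toN g) (φ i x) (hFev i) r
  have hevroot : ∀ i, ev i (AdjoinRoot.root F) = φ i x := fun i =>
    AdjoinRoot.liftAlgHom_root F (toN g) (φ i x) (hFev i)
  have hevp : ∀ i (Q : (Loc g)[X]), ev i (Q.eval₂ (AdjoinRoot.of F) x') =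
      (Q.map (toN g).toRingHom).eval (φ i x) := by
    intro i Q
    have h1 := Polynomial.hom_eval₂ Q (AdjoinRoot.of F) (ev i).toRingHom x'
    have h2 : (ev i).toRingHom.comp (AdjoinRoot.of F) = (toN g).toRingHom :=
      RingHom.ext (hevof i)
    rw [h2] at h1
    rw [Polynomial.eval_map]
    refine h1.trans ?_
    change Q.eval₂ _ (ev i x') = _
    rw [hevroot i]
  have hev : ∀ i, (ev i).comp Θ = φ i := by
    intro i
    have h1 : ∀ k ∈ IntermediateField.adjoin ℂ {l, x, y}, ((ev i).comp Θ) k = φ i k := by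
      apply agree_on_adjoin
      rintro k (rfl | rfl | rfl)
      · change ev i (Θ k) = φ i k
        have h2 := hΘ ⟨k, IntermediateField.mem_adjoin_simple_self ℂ k⟩
        change Θ k = _ at h2
        rw [h2]
        exact (hevof i _).trans ((hlam' _).trans (hφ i ⟨k, _⟩).symm)
      · change ev i (Θ k) = φ i k
        rw [hΘx]
        exact hevroot i
      · change ev i (Θ k) = φ i k
        rw [hΘy, map_neg, map_mul, hevp, hA]
        have h2 := congrArg (ev i) hv
        rw [map_mul, map_one, hevp, hB] at h2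
        linear_combination (ev i v) * (-hφy i) + (φ i k) * h2
    apply AlgHom.ext
    intro k
    apply h1
    rw [htop]
    exact IntermediateField.mem_top
  have h1 := good_roots (f := f) (j := j) (hj := hj) F hFm (fun i => φ i x) hinj hprod (Θ.comp ι)
    ev hevof hevroot
  have h2 : ∀ i, (ev i).comp (Θ.comp ι) = (φ i).comp ι := by
    intro i
    rw [← AlgHom.comp_assoc, hev]
  simp only [h2] at h1
  exact h1

/-- The zeros of a function `α(x) + β(x) y` on a pencil of hyperelliptic curves. -/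
theorem div_good {I : Type} [Fintype I] {K N : Type} [Field K] [Algebra ℂ K] [Field N]
    [Algebra ℂ N]
    (l x y : K) (hind : AlgebraicIndependent ℂ ![l, x])
    (fK : (IntermediateField.adjoin ℂ {l})[X]) (hy : y ^ 2 = aeval x fK)
    (hyK : y ∉ IntermediateField.adjoin ℂ (Set.range ![l, x]))
    (htop : IntermediateField.adjoin ℂ {l, x, y} = ⊤)
    (lam : IntermediateField.adjoin ℂ {l} →ₐ[ℂ] N) (al be : N[X])
    (hal : 2 * al.natDegree ≤ Fintype.card I)
    (hbe : 2 * be.natDegree + fK.natDegree ≤ Fintype.card I) (c : N) (hc : c ≠ 0)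
    (φ : I → (K →ₐ[ℂ] N)) (hφ : ∀ i (e : IntermediateField.adjoin ℂ {l}), φ i e = lam e)
    (hinj : Function.Injective fun i => φ i x)
    (hn : al ^ 2 - be ^ 2 * fK.map lam.toRingHom =
      Polynomial.C c * ∏ i, (X - Polynomial.C (φ i x)))
    (hb : ∀ i, be.eval (φ i x) ≠ 0)
    (hφy : ∀ i, al.eval (φ i x) + be.eval (φ i x) * φ i y = 0) (ι : C →ₐ[ℂ] K) :
    ∑ i, Finsupp.single ((φ i).comp ι) (1 : ℤ) ∈ Good f j hj (Rat f) N := by
  classical
  let e := Fintype.equivFin I
  have h1 := div_good_fin (f := f) (j := j) (hj := hj) l x y hind fK hy hyK htop lam al be hal hbe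
    c hc (fun k => φ (e.symm k)) (fun k => hφ (e.symm k))
    (fun k k' h => e.symm.injective (hinj h)) (by
      rw [hn]
      congr 1
      exact (Equiv.prod_comp e.symm (fun i => (X - Polynomial.C (φ i x) : N[X]))).symm)
    (fun k => hb (e.symm k)) (fun k => hφy (e.symm k)) ι
  rw [← Equiv.sum_comp e.symm]
  exact h1

end

end Vale.Agent.P297.Gen
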