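import Vale.Agent.P297.Gen.Block
import Mathlib.RingTheory.Trace.Basic

/-!
Cubic extensions generated by a root of `X³ + A X + B`, and the sextic of a (3,3)-split pencil.
-/

set_option linter.unusedSectionVars false
set_option linter.style.haveILetI false

open CategoryTheory AlgebraicGeometry IntermediateField Polynomial

namespace Vale.Agent.P297.Gen

open Vale.Agent.P297 Vale.Agent.P297.H839 Vale.Agent.P297.H516 Vale.Agent.P297.H878

/-- An extension generated by a root of `X³ + A X + B` which has three embeddings. -/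
theorem cubic_trace {K N : Type} [Field K] [Algebra ℂ K] [Field N] [Algebra ℂ N] [IsAlgClosed N]
    (F : IntermediateField ℂ K) (u : K) (htop : F ⊔ IntermediateField.adjoin ℂ {u} = ⊤) (A B : F)
    (hu : u ^ 3 + A * u + B = 0) (φ : Fin 3 → (K →ₐ[ℂ] N))
    (hφ : ∀ i j, ∀ k ∈ F, φ i k = φ j k) (hinj : Function.Injective φ) :
    Module.finrank F K = 3 ∧ Algebra.trace F K u = 0 := by
  haveI : CharZero F := charZero_of_injective_algebraMap (algebraMap ℂ F).injective
  let g : F[X] := X ^ 3 + Polynomial.C A * X + Polynomial.C B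
  have hgdeg : g.natDegree = 3 := by
    change (X ^ 3 + Polynomial.C A * X + Polynomial.C B : F[X]).natDegree = 3
    compute_degree!
  have hgm : g.Monic := by
    change (X ^ 3 + Polynomial.C A * X + Polynomial.C B : F[X]).Monic
    monicity!
  have hgu : aeval u g = 0 := by
    change aeval u (X ^ 3 + Polynomial.C A * X + Polynomial.C B : F[X]) = 0
    simp only [map_add, map_mul, map_pow, aeval_X, aeval_C]
    exact hu
  have hint : IsIntegral F u := ⟨g, hgm, hgu⟩
  have hadj : IntermediateField.adjoin F {u} = (⊤ : IntermediateField F K) := by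
    rw [eq_top_iff]
    intro k _
    have h1 : F ⊔ IntermediateField.adjoin ℂ {u} ≤
        (IntermediateField.adjoin F {u}).restrictScalars ℂ := by
      rw [sup_le_iff]
      refine ⟨fun z hz => (IntermediateField.adjoin F {u}).algebraMap_mem ⟨z, hz⟩, ?_⟩
      rw [IntermediateField.adjoin_le_iff]
      rintro _ rfl
      exact IntermediateField.mem_adjoin_simple_self F _
    rw [htop] at h1
    exact h1 (show k ∈ (⊤ : IntermediateField ℂ K) from trivial)
  haveI hfd : FiniteDimensional F K := by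
    haveI := IntermediateField.adjoin.finiteDimensional hint
    rw [hadj] at this
    exact Module.Finite.equiv (IntermediateField.topEquiv (F := F) (E := K)).toLinearEquiv
  have hrank : Module.finrank F K = (minpoly F u).natDegree := by
    rw [← IntermediateField.adjoin.finrank hint, hadj, IntermediateField.finrank_top']
  -- the embeddings
  letI : Algebra F N := ((φ 0).comp F.val).toRingHom.toAlgebra
  let e : Fin 3 → (K →ₐ[F] N) := fun i =>
    { (φ i).toRingHom with
      commutes' := fun k => hφ i 0 k k.2 }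
  have he : ∀ i (k : K), e i k = φ i k := fun _ _ => rfl
  have heinj : Function.Injective e := by
    intro i j hij
    apply hinj
    apply AlgHom.ext
    intro k
    rw [← he, ← he, hij]
  have hcard := Fintype.card_le_of_injective e heinj
  rw [AlgHom.card F K N, Fintype.card_fin, hrank] at hcard
  have hmp : minpoly F u = g := by
    refine (Polynomial.eq_of_monic_of_dvd_of_natDegree_le (minpoly.monic hint) hgm
      (minpoly.dvd F u hgu) ?_).symm
    rw [hgdeg]
    exact hcard
  refine ⟨by rw [hrank, hmp, hgdeg], ?_⟩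
  rw [trace_eq_finrank_mul_minpoly_nextCoeff, hmp]
  have h1 : g.nextCoeff = 0 := by
    rw [nextCoeff_of_natDegree_pos (by rw [hgdeg]; norm_num), hgdeg]
    change (X ^ 3 + Polynomial.C A * X + Polynomial.C B : F[X]).coeff 2 = 0
    simp
  rw [h1, neg_zero, mul_zero]

section Sqf

variable {k : Type} [Field k] [CharZero k]

theorem sep_pp (a b : k) (h : a ^ 3 + b ^ 2 ≠ 0) :
    (pp (Polynomial.C a) (Polynomial.C b) X : k[X]).Separable := by
  rw [separable_def']
  have hder : derivative (pp (Polynomial.C a) (Polynomial.C b) X : k[X]) =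
      3 * X ^ 2 + 3 * Polynomial.C a := by
    unfold pp
    simp only [derivative_add, derivative_X_pow, derivative_mul, derivative_C, derivative_X,
      derivative_ofNat, Nat.cast_ofNat]
    simp only [map_ofNat]
    ring
  have hC : Polynomial.C (a ^ 3 + b ^ 2)⁻¹ * (Polynomial.C a ^ 3 + Polynomial.C b ^ 2) =
      (1 : k[X]) := by
    rw [← C_pow, ← C_pow, ← C_add, ← C_mul, inv_mul_cancel₀ h, C_1]
  have h6 : Polynomial.C (6 : k)⁻¹ * (6 : k[X]) = 1 := by
    have h7 : (6 : k[X]) = Polynomial.C 6 := (map_ofNat Polynomial.C 6).symm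
    rw [h7, ← C_mul, inv_mul_cancel₀ (by norm_num : (6 : k) ≠ 0), C_1]
  refine ⟨Polynomial.C (a ^ 3 + b ^ 2)⁻¹ * Polynomial.C (6 : k)⁻¹ *
      (-3 * (Polynomial.C a * X - Polynomial.C b)),
    Polynomial.C (a ^ 3 + b ^ 2)⁻¹ * Polynomial.C (6 : k)⁻¹ * (2 * Polynomial.C a ^ 2 +
      (Polynomial.C a * X - Polynomial.C b) * X), ?_⟩
  rw [hder]
  unfold pp
  linear_combination hC + Polynomial.C (a ^ 3 + b ^ 2)⁻¹ *
    (Polynomial.C a ^ 3 + Polynomial.C b ^ 2) * h6

theorem sep_qq (c d : k) (h : c ^ 3 + d ^ 2 ≠ 0) :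
    (qq (Polynomial.C c) (Polynomial.C d) X : k[X]).Separable := by
  rw [separable_def']
  have hder : derivative (qq (Polynomial.C c) (Polynomial.C d) X : k[X]) =
      6 * Polynomial.C d * X ^ 2 + 6 * Polynomial.C c * X := by
    unfold qq
    simp only [derivative_add, derivative_X_pow, derivative_mul, derivative_C,
      derivative_ofNat, Nat.cast_ofNat, derivative_one]
    simp only [map_ofNat]
    ring
  have hC : Polynomial.C (c ^ 3 + d ^ 2)⁻¹ * (Polynomial.C c ^ 3 + Polynomial.C d ^ 2) =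
      (1 : k[X]) := by
    rw [← C_pow, ← C_pow, ← C_add, ← C_mul, inv_mul_cancel₀ h, C_1]
  have h6 : Polynomial.C (6 : k)⁻¹ * (6 : k[X]) = 1 := by
    have h7 : (6 : k[X]) = Polynomial.C 6 := (map_ofNat Polynomial.C 6).symm
    rw [h7, ← C_mul, inv_mul_cancel₀ (by norm_num : (6 : k) ≠ 0), C_1]
  refine ⟨Polynomial.C (c ^ 3 + d ^ 2)⁻¹ * (Polynomial.C c ^ 3 + Polynomial.C c ^ 2 *
      Polynomial.C d * X + Polynomial.C d ^ 2),
    Polynomial.C (c ^ 3 + d ^ 2)⁻¹ * Polynomial.C (6 : k)⁻¹ * (-2 * X * (Polynomial.C c ^ 3 +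
      Polynomial.C c ^ 2 * Polynomial.C d * X + Polynomial.C d ^ 2) - Polynomial.C c ^ 3 * X -
      Polynomial.C c * Polynomial.C d), ?_⟩
  rw [hder]
  unfold qq
  linear_combination hC + Polynomial.C (c ^ 3 + d ^ 2)⁻¹ * ((-2 * X * (Polynomial.C c ^ 3 +
      Polynomial.C c ^ 2 * Polynomial.C d * X + Polynomial.C d ^ 2) - Polynomial.C c ^ 3 * X -
      Polynomial.C c * Polynomial.C d) * (Polynomial.C d * X ^ 2 + Polynomial.C c * X)) * h6

theorem no_common {N : Type} [Field N] [CharZero N] {a b c d x : N}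
    (h : 12 * a * c + 16 * b * d = 1) (hD₁ : a ^ 3 + b ^ 2 ≠ 0) (hD₂ : c ^ 3 + d ^ 2 ≠ 0)
    (hp : pp a b x = 0) (hq : qq c d x = 0) : False := by
  have hx : x ≠ 0 := by
    rintro rfl
    unfold qq at hq
    simp at hq
  have h3 : (3 : N) ≠ 0 := by norm_num
  have h4 : (4 : N) ≠ 0 := by norm_num
  have k1 : (c - 2 * d * x) * (x ^ 2 + 4 * a) = 0 := by
    have h5 : 3 * ((c - 2 * d * x) * (x ^ 2 + 4 * a)) = 0 := by
      unfold pp at hp
      unfold qq at hq
      linear_combination hq - 8 * d * hp + h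
    exact (mul_eq_zero.1 h5).resolve_left h3
  have k2 : (4 * c * x ^ 2 + 1) * (a * x - 2 * b) = 0 := by
    have h5 : 3 * ((4 * c * x ^ 2 + 1) * (a * x - 2 * b)) = 0 := by
      unfold pp at hp
      unfold qq at hq
      linear_combination hp - 8 * b * hq + x ^ 3 * h
    exact (mul_eq_zero.1 h5).resolve_left h3
  have e1 : c - 2 * d * x = 0 → 4 * c * x ^ 2 + 1 = 0 → False := by
    intro m1 m2
    apply hD₂
    linear_combination (c ^ 2 + 2 * c * d * x + 4 * d ^ 2 * x ^ 2) * m1 +
      d ^ 2 * (m2 - 4 * x ^ 2 * m1)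
  have e2 : a * x - 2 * b = 0 → x ^ 2 + 4 * a = 0 → False := by
    intro m1 m2
    apply hD₁
    have h5 : (4 : N) * (a ^ 3 + b ^ 2) = 0 := by
      linear_combination a ^ 2 * m2 - (a * x + 2 * b) * m1
    exact (mul_eq_zero.1 h5).resolve_left h4
  rcases mul_eq_zero.1 k1 with m1 | m1
  · rcases mul_eq_zero.1 k2 with m2 | m2
    · exact e1 m1 m2
    · apply e2 m2
      apply (mul_eq_zero.1 (show x * (x ^ 2 + 4 * a) = 0 by
        unfold pp at hp
        linear_combination hp + m2)).resolve_left hx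
  · rcases mul_eq_zero.1 k2 with m2 | m2
    · refine e1 ?_ m2
      have h5 : x ^ 2 * (4 * (c - 2 * d * x)) = 0 := by
        unfold qq at hq
        linear_combination 4 * m2 - 4 * hq
      exact (mul_eq_zero.1 ((mul_eq_zero.1 h5).resolve_left (pow_ne_zero 2 hx))).resolve_left h4
    · exact e2 m2 m1

/-- The sextic. -/
noncomputable def sext (t a b c d : k) : k[X] :=
  Polynomial.C t⁻¹ * (pp (Polynomial.C a) (Polynomial.C b) X *
    qq (Polynomial.C c) (Polynomial.C d) X)

theorem sext_sep {t a b c d : k} (ht : t ≠ 0) (h : 12 * a * c + 16 * b * d = 1)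
    (hD₁ : a ^ 3 + b ^ 2 ≠ 0) (hD₂ : c ^ 3 + d ^ 2 ≠ 0) : (sext t a b c d).Separable := by
  unfold sext
  refine Separable.unit_mul (isUnit_C.2 (isUnit_iff_ne_zero.2 (inv_ne_zero ht))) ?_
  refine Separable.mul (sep_pp a b hD₁) (sep_qq c d hD₂) ?_
  refine (Polynomial.isCoprime_iff_aeval_ne_zero_of_isAlgClosed k (AlgebraicClosure k) _ _).2 ?_
  intro r
  by_contra hcon
  push Not at hcon
  obtain ⟨m1, m2⟩ := hcon
  haveI : CharZero (AlgebraicClosure k) :=
    charZero_of_injective_algebraMap (algebraMap k (AlgebraicClosure k)).injective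
  have hinj : Function.Injective (algebraMap k (AlgebraicClosure k)) := RingHom.injective _
  have f1 := map_pp (aeval r : k[X] →ₐ[k] AlgebraicClosure k).toRingHom (Polynomial.C a)
    (Polynomial.C b) X
  have f2 := map_qq (aeval r : k[X] →ₐ[k] AlgebraicClosure k).toRingHom (Polynomial.C c)
    (Polynomial.C d) X
  have f1' : pp (aeval r (Polynomial.C a : k[X])) (aeval r (Polynomial.C b : k[X]))
      (aeval r (X : k[X])) = 0 := f1.symm.trans m1
  have f2' : qq (aeval r (Polynomial.C c : k[X])) (aeval r (Polynomial.C d : k[X]))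
      (aeval r (X : k[X])) = 0 := f2.symm.trans m2
  rw [aeval_C, aeval_C, aeval_X] at f1' f2'
  refine no_common ?_ ?_ ?_ f1' f2'
  · have h5 := congrArg (algebraMap k (AlgebraicClosure k)) h
    simp only [map_add, map_mul, map_ofNat, map_one] at h5
    exact h5
  · rw [← map_pow, ← map_pow, ← map_add]
    exact fun h5 => hD₁ (hinj (h5.trans (map_zero _).symm))
  · rw [← map_pow, ← map_pow, ← map_add]
    exact fun h5 => hD₂ (hinj (h5.trans (map_zero _).symm))

theorem natDegree_pp (a b : k) : (pp (Polynomial.C a) (Polynomial.C b) X : k[X]).natDegree = 3 := by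
  unfold pp
  have h2 : (2 : k[X]) = Polynomial.C 2 := (map_ofNat Polynomial.C 2).symm
  have h3 : (3 : k[X]) = Polynomial.C 3 := (map_ofNat Polynomial.C 3).symm
  rw [h2, h3, ← C_mul, ← C_mul]
  compute_degree!

theorem natDegree_qq {c d : k} (h : c ^ 3 + d ^ 2 ≠ 0) :
    2 ≤ (qq (Polynomial.C c) (Polynomial.C d) X : k[X]).natDegree ∧
      (qq (Polynomial.C c) (Polynomial.C d) X : k[X]).natDegree ≤ 3 := by
  unfold qq
  have h2 : (2 : k[X]) = Polynomial.C 2 := (map_ofNat Polynomial.C 2).symm
  have h3 : (3 : k[X]) = Polynomial.C 3 := (map_ofNat Polynomial.C 3).symm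
  rw [h2, h3, ← C_mul, ← C_mul]
  constructor
  · by_cases hd : d = 0
    · have hc : c ≠ 0 := by
        rintro rfl
        rw [hd] at h
        exact h (by ring)
      apply le_natDegree_of_ne_zero
      simp only [coeff_add, coeff_C_mul, coeff_X_pow, coeff_one]
      norm_num
      exact hc
    · refine le_trans (by norm_num : 2 ≤ 3) (le_natDegree_of_ne_zero ?_)
      simp only [coeff_add, coeff_C_mul, coeff_X_pow, coeff_one]
      norm_num
      exact hd
  · compute_degree!

theorem sext_degree {t a b c d : k} (ht : t ≠ 0) (hD₂ : c ^ 3 + d ^ 2 ≠ 0) :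
    5 ≤ (sext t a b c d).natDegree ∧ (sext t a b c d).natDegree ≤ 6 := by
  have h1 := natDegree_pp a b
  obtain ⟨h2, h3⟩ := natDegree_qq hD₂
  have hp : (pp (Polynomial.C a) (Polynomial.C b) X : k[X]) ≠ 0 := by
    intro h0
    rw [h0, natDegree_zero] at h1
    omega
  have hq : (qq (Polynomial.C c) (Polynomial.C d) X : k[X]) ≠ 0 := by
    intro h0
    rw [h0, natDegree_zero] at h2
    omega
  unfold sext
  rw [natDegree_C_mul (inv_ne_zero ht), natDegree_mul hp hq]
  omega

end Sqf

end Vale.Agent.P297.Gen
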